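import Vale.Agent.P154.D4.K0.Data
import Vale.Agent.P154.Check2

namespace Vale.Agent.P154.D4.K0

open Cert

/-- Chart (0, 0). -/
def P00 : Pb := chartPb false false Nd w G []

/-- Chart (0, 1). -/
def P01 : Pb := chartPb false true Nd w G []

/-- Chart (1, 0). -/
def P10 : Pb := chartPb true false Nd w G []

/-- Chart (1, 1). -/
def P11 : Pb := chartPb true true Nd w G []

/-- The offset. -/
def KK : ℕ := 217327764647901735884376228537482684576559015509079127959763147156450094840678695795286273331320969476777252207261558135600619608691758879538488773484810059550172215990502245308525826306634891692269394568419570824204774972354079304853684576515249286092412155717123183761518144065105857969346366006994938535479442383180648843906646016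

end Vale.Agent.P154.D4.K0
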