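import Vale.Agent.P154.D4.K0.Charts

set_option maxRecDepth 100000

namespace Vale.Agent.P154.D4.K0

open Cert InT OutT

/-- Certificate tree. -/
def tr00_r10100 : OutT :=
(A (B (A (B (O (c (c (c l l) (c l l)) (c (c l l) (d (c k k) (c (c l l) (d (c k k) (c l (d (c k k) l)))))))) (O (c (c (c l l) (c l l)) (c (c l l) (d (c k k) (c (c l l) (d (c k k) (c l (d (c k k) (c l l)))))))))) (B (A (O (c (c (c l l) (c l l)) (c (c l l) (d (d k (d l l)) (c l (d l l)))))) (O (c (c (c l l) (c l l)) (c (c l l) (d (c k k) (c l (d l l))))))) (A (O (c (c (c l l) (c l l)) (c (c l l) (d (d k (c k k)) (c l (d l l)))))) (O (c (c (c l l) (c l l)) (c (c l l) (d (c k k) (c l (d l l))))))))) (A (B (O (c (c (c l l) (c l l)) (c (c l l) (d (c k k) (c (c l l) (d (c k k) (c l (d (d k l) (c l l))))))))) (O (c (c (c (c l l) l) (c l l)) (c (c l l) (c (d k (c l l)) (d k (d (c k k) (c l (d (c k k) (c l l)))))))))) (B (A (O (c (c (c l l) (c l l)) (c (c l l) (d (d k l) (c l (d l l))))))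 (O (c (c (c l l) (c l l)) (c (c l l) (d (d k (c k k)) (c l (d l l))))))) (A (O (c (c (c l l) (c l l)) (c (c l l) (d (c k k) (c l (d l l)))))) (O (c (c (c l l) (c l l)) (c (c l l) (d (d k (c k k)) (c l (d l l)))))))))) (B (A (B (A (O (c (c (c l l) (c l l)) (c (c l l) (d (c k k) (c l (d (d k l) (c l l))))))) (O (c (c (c l l) (c l l)) (c (c l l) (d (c k k) (c l (d (d k (c k k)) (d l l)))))))) (A (O (c (c (c l l) (c l l)) (c (c l l) (d (c k k) (c l (d (d k l) (c l l))))))) (O (c (c (c l l) (c l l)) (c (c l l) (d (c k k) (c l (d (d k l) (d l l))))))))) (B (A (O (c (c (c l l) (c l l)) (c (c l (c l l)) (d (c k k) (c (c l l) (d (c k k) (c l (d (c k k) l)))))))) (B (O (c (c (c l l) (c l l)) (c (c l (c l l)) (d (c k k) (c (c l l) (d (c k k) (c l (d l l)))))))) (O (c (c (c l l) (c l l)) (c (c l (c l l)) (d (c k k) (c (c l l) (d (c k k) (c l (d l l)))))))))) (A (O (c (c (c l l) (c l l)) (c (c l l) (d (c k k) (c (c l l) (d (c k k) (c l (d (c k k) l)))))))) (B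 (O (c (c (c l l) (c l l)) (c (c l l) (d (c k k) (c (c l l) (d (c k k) (c l (d l l)))))))) (O (c (c (c l l) (c l l)) (c (c l l) (d (c k k) (c l (d (c k k) (c l (d l l)))))))))))) (A (B (A (O (c (c (c l l) (c l l)) (c (c l l) (d (c k k) (c l (d (c k k) (c l l))))))) (O (c (c (c l l) (c l l)) (c (c l l) (d (c k k) (c l (d (d k l) (d l (c l l))))))))) (A (O (c (c (c l l) (c l l)) (c (c l l) (d (d k (c k k)) (c l (d (c k k) (c l l))))))) (O (c (c (c l l) (c l l)) (c (c l l) (d (c k k) (c l (d (d k l) (d l (c l l)))))))))) (B (A (O (c (c (c l l) (c l l)) (c (c l l) (d (c k k) (c l (d (c k k) (c l (d (c k k) l)))))))) (B (O (c (c (c l l) (c l l)) (c (c l l) (d (c k k) (c l (d (d k (d (c k k) l)) (c l (d l l)))))))) (O (c (c (c l l) (c l l)) (c (c l l) (d (c k k) (c l (d (d k (d l l)) (c l (d l l)))))))))) (A (O (c (c (c l l) (c l l)) (c (c l l) (d (c k k) (c l (d (c k k) (c l (d (d k l) (c l l))))))))) (B (O (c (c (c l l) (c l l)) (c (c l l) (d (c k k)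 (c l (d (d k (d l l)) (c l (d l l)))))))) (O (c (c (c l l) (c l l)) (c (c l l) (d (c k k) (c l (d (d k (d l l)) (c l (d l l))))))))))))))

theorem s00_r10100 : Sound P00 32768 4096 32768 8192 :=
  chkOut2_sound P00 KK tr00_r10100 32768 4096 32768 8192 (by decide +kernel)

end Vale.Agent.P154.D4.K0
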