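import Vale.Agent.P154.D4.K0.Charts

set_option maxRecDepth 100000

namespace Vale.Agent.P154.D4.K0

open Cert InT OutT

/-- Certificate tree. -/
def tr00_r101101 : OutT :=
(B (A (B s (A (B s (A (O (c (c l (c l l)) (c (c l (d l l)) (d (c k k) (c (c l l) (d (c k k) (d (d (c l k) (c l l)) (c l l)))))))) s)) s)) s) (A (B (A (B (A (O (c (c l (c l l)) (c (c l (c l l)) (d (c k k) (c (c l l) (d (c k k) (d (d l l) (c l l)))))))) (O (c (c l (c l l)) (c (c l (c l l)) (d (c k k) (c (c l l) (d (c k k) (c l (d (d k l) (c l l)))))))))) (A (O (c (c l (c l l)) (c (c l l) (d (c k k) (c l (d (c k k) (d (c l l) (c l l)))))))) (O (c (c l (c l l)) (c (c l l) (d (c k k) (c (c l l) (d (c k k) (c l (d (d k l) l)))))))))) (B (A s s) (A (O (c (c l (c l l)) (c (c l (c l l)) (d (c k k) (c (c l l) (d (c k k) (c l (d (d k (d (c k k) l)) (d (c l l) l))))))))) s))) (A (B (A (O (c (c l (c l l)) (c (c l l) (d (c k k) (c l (d (d k (d (c k k) l)) (d (c l l) (c l l)))))))) (O (c (c l (c l l))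 (c (c l l) (d (c k k) (c l (d (c k k) (c l (d (d k l) l))))))))) (A (O (c (c l (c l l)) (c (c l l) (d (c k k) (c l (d (d k (d l l)) (d (c l l) (c l l)))))))) (O (c (c l (c l l)) (c (c l l) (d (c k k) (c l (d (c k k) (c l (d (c k k) l)))))))))) (B (A (O (c (c l (c l l)) (c (c l l) (c (d k l) (d k (d (c k k) (c l (d (d k (c k k)) (d l l))))))))) (B (O (c (c l (c l l)) (c (c l l) (d (c k k) (c l (d (c k k) (d (c l l) (c l l)))))))) (O (c (c l (c l l)) (c (c l l) (d (c k k) (c l (d (c k k) (d (c l l) (c l l)))))))))) (A (O (c (c l (c l l)) (c (c l l) (c (d k l) (d k (d (c k k) (c l (d (d k l) (d l l))))))))) (B (O (c (c l l) (c (c l l) (d (c k k) (c l (d (c k k) (d (c l l) (c l l)))))))) (O (c (c l l) (c (c l l) (d (c k k) (c l (d (d k (d (c k k) l)) (d (c l l) (c l l))))))))))))) (B (A s s) (A (B (A (B s (O (c (c l (c l l)) (c (c l l) (d (c k k) (c l (d (c k k) (c l (d (d k l) l))))))))) s) (A (B (O (c (c l l) (c (c l l) (d (c k k) (c l (d (c k k) (c l (d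 (d k l) l)))))))) (O (c (c l l) (c (c l l) (d (c k k) (c l (d (c k k) (d (d l l) (c l l))))))))) (B s (O (c (c l l) (c (c l l) (c (d k l) (d k (d (c k k) (c l (d (d k (c k k)) (d l l)))))))))))) (B s (A s s))))))

theorem s00_r101101 : Sound P00 45056 2048 32768 8192 :=
  chkOut2_sound P00 KK tr00_r101101 45056 2048 32768 8192 (by decide +kernel)

end Vale.Agent.P154.D4.K0
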