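import Vale.Agent.P154.D4.K0.Charts

set_option maxRecDepth 100000

namespace Vale.Agent.P154.D4.K0

open Cert InT OutT

/-- Certificate tree. -/
def tr00_r1011101 : OutT :=
(A (B (A (B (A (O (c (c (c l l) l) (c l (d l (c l (c l l)))))) (O (c (c l l) (c l (d l (c l (c l l))))))) (A (O (c (c (c l l) l) (c l (d l (c l (c l l)))))) (O (c (c l l) (c l (d l (c l (c l l)))))))) (B (A (O (c (c l l) (c l (d l (c l (c l l)))))) (O (c (c l l) (c l (d l (c l (d l l))))))) (A (O (c (c l l) (c l (d l (c l (c l l)))))) (O (c (c l l) (c l (d l (c l (c l l))))))))) (A (B (A (O (c (c l l) (c l (d l (c l (c l l)))))) (O (c (c l l) (c l (d l (c l (c l l))))))) (A (O (c (c l l) (c l (d l (c l l))))) (O (c (c l l) (c l (d l (c l (c l l)))))))) (B (A (O (c (c l l) (c l (d l (c l (c l l)))))) (O (c (c l l) (c l (d l (c l (c l l))))))) (A (O (c (c l l) (c l (d l (c l (c l l)))))) (O (c (c l l) (c l (d l (c l (c l l)))))))))) (B (A (B (A (O (c (c l l) (c l (d l (c l (d l l)))))) (O (c (c l l) (c l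 (d (c k k) (c l (d l l))))))) (A (O (c (c l l) (c l (d l (c l (d l l)))))) (O (c (c l l) (c l (d l (c l (d l l)))))))) (B (A (O (c (c l l) (c l (d (c k k) (c l (d l l)))))) (O (c (c l l) (c l (d (c k k) (c l (d l (c l l)))))))) (A (O (c (c l l) (c l (d (c k k) (c l (d l l)))))) (O (c (c l l) (c l (d (c k k) (c l (d l (c l l)))))))))) (A (B (A (O (c (c l l) (c l (d l (c l (d l l)))))) (O (c (c l l) (c l (d l (c l (d l l))))))) (A (O (c (c l l) (c l (d l (c l (c l l)))))) (O (c (c l l) (c l (d l (c l (d l l)))))))) (B (A (O (c (c l l) (c l (d l (c l (d l l)))))) (O (c (c l l) (c l (d (c k k) (c l (d l (c l l)))))))) (A (O (c (c l l) (c l (d l (c l (d l l)))))) (O (c (c l l) (c l (d (c k k) (c l (d l (c l l))))))))))))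

theorem s00_r1011101 : Sound P00 40960 2048 57344 4096 :=
  chkOut2_sound P00 KK tr00_r1011101 40960 2048 57344 4096 (by decide +kernel)

end Vale.Agent.P154.D4.K0
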