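import Vale.Agent.P154.D4.K0.Charts

set_option maxRecDepth 100000

namespace Vale.Agent.P154.D4.K0

open Cert InT OutT

/-- Certificate tree. -/
def tr00_r10111111 : OutT :=
(B (A (B (A (B (O (c (c l l) (c l (d (c k k) (c l (d (d k l) (d l (c l l)))))))) (O (c (c l l) (c l (d (c k k) (c l (d (d k l) (d l (c l l))))))))) (B (O (c (c l l) (c l (c l (d k (d (d k l) (c l (d l (c l l))))))))) (O (c (c l l) (c l (d (c k k) (c l (d (d k l) (c l (d l (c l l))))))))))) (A (B (O (c (c l l) (c l (d (c k k) (c l (d (c k k) (d l (c l l)))))))) (O (c (c l l) (c l (d (c k k) (c l (d l (d l (c l l))))))))) (B (O (c (c l l) (c l (d (c k k) (c l (d (d k l) (c l (d l (c l l))))))))) (O (c (c l l) (c l (d (c k k) (c l (d (d k l) (c l (d l (c l l)))))))))))) (B (A (B (A (O (c (c l l) (c l (d l (c l l))))) (O (c (c l l) (c l (d l (c l l)))))) (A (O (c (c l l) (c l (d l (c l l))))) (O (c (c l l) (c l (d l (c l l))))))) (B (A (O (c (c l l) (c l (d l (c l l))))) (O (c (c l l) (c l (d l (c l l))))))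 (A (O (c (c l l) (c l (d l (c l l))))) (O (c (c l l) (c l (d l (c l l)))))))) (A (B (A (O (c (c l l) (c l (d l (c l l))))) (O (c (c l l) (c l (d l (c l l)))))) (A (O (c (c l l) (c l (d l (c l l))))) (O (c (c l l) (c l (d l (c l l))))))) (B (A (O (c (c l l) (c l (d l (c l l))))) (O (c (c l l) (c l (d l (c l l)))))) (A (O (c (c l l) (c l (d l (c l l))))) (O (c (c l l) (c l (d l (c l l)))))))))) (A (B (A (B (O (c (c l l) (c l (d (c k k) (c l (d l (d l (c l l)))))))) (O (c (c l l) (c l (d (c k k) (c l (d l (d l (c l l))))))))) (B (O (c (c l l) (c l (d (c k k) (c l (d (d k l) (c l (d l l)))))))) (O (c (c l l) (c l (c l (d k (d (c k k) (c l (d l l)))))))))) (A (B (O (c (c l l) (c l (d (c k k) (c l (d l (d l (c l l)))))))) (O (c (c l l) (c l (c l (d k (d l (c l (c l l))))))))) (B (O (c (c l l) (c l (c l (d k (d (c k k) (c l (d l l)))))))) (O (c (c l l) (c l (c l (d k (d l (c l (d l l))))))))))) (B (A (B (A (O (c (c l l) (c l (d l (c l l))))) (O (c (c l l) (c l (d l (c l l))))))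 (A (O (c (c l l) (c l (d l (c l l))))) (O (c (c l l) (c l (d l (c l l))))))) (B (A (O (c (c l l) (c l (d l (c l l))))) (O (c (c l l) (c l (d l (c l l)))))) (A (O (c (c l l) (c l (d l (c l l))))) (O (c (c l l) (c l (d l (c l l)))))))) (A (B (A (O (c (c l l) (c l (d l (c l l))))) (O (c (c l l) (c l (d l (c l l)))))) (A (O (c (c l l) (c l (d l (c l l))))) (O (c (c l l) (c l (d l (c l l))))))) (B (A (O (c (c l l) (c l (d l (c l l))))) (O (c (c l l) (c l (d l (c l l)))))) (A (O (c (c l l) (c l (d l (c l l))))) (O (c (c l l) (c l (d l (c l l)))))))))))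

theorem s00_r10111111 : Sound P00 47104 1024 57344 4096 :=
  chkOut2_sound P00 KK tr00_r10111111 47104 1024 57344 4096 (by decide +kernel)

end Vale.Agent.P154.D4.K0
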