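import Vale.Agent.P154.D4.K0.Charts

set_option maxRecDepth 100000

namespace Vale.Agent.P154.D4.K0

open Cert InT OutT

/-- Certificate tree. -/
def tr00_r1110100 : OutT :=
(A (B (A (B (A s s) (A (B (A s s) (A (O (c (c l l) (c l (d (d k (d (c k k) l)) (c l (d l l)))))) (O (c (c l l) (c l (d (c k k) (c l (d l l)))))))) (B s (A s s)))) (B s (A s s))) (A (B (A (B (A (O (c (c l l) (c l (d (d k (c k k)) (c l (d l l)))))) (O (c (c l l) (c l (d (d k (c k k)) (c l (d l l))))))) (A (O (c (c l l) (c l (d (d k l) (c l (d l l)))))) (O (c (c l l) (c l (d (d k l) (c l (d l l)))))))) (B (A (O (c (c l l) (c l (d (d k (c k k)) (c l (d l l)))))) (O (c (c l l) (c l (d (d k (d l l)) (c l (d l l))))))) (A (O (c (c l l) (c l (d (d k (c k k)) (c l (d l l)))))) (O (c (c l l) (c l (d (d k (c k k)) (c l (d l l))))))))) (A (B (A (O (c (c l l) (c l (d (c k k) (c l (c l l)))))) (O (c (c l l) (c l (d (c k k) (c l (d l l))))))) (A (O (c (c l l) (c l (d l (c l (c l l)))))) (O (c (c l l) (c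 l (d l (c l (c l l)))))))) (B (A (O (c (c l l) (c l (d (c k k) (c l (d l l)))))) (O (c (c l l) (c l (d (c k k) (c l (d l l))))))) (A (O (c (c l l) (c l (d l (c l (d l l)))))) (O (c (c l l) (c l (d (c k k) (c l (d l l)))))))))) (B (A (B (A s s) (A (O (c (c l l) (c l (d (d k (c k k)) (c l (d l l)))))) (O (c (c l l) (c l (d (d k (c k k)) (c l (d l l)))))))) (B s (A s s))) (A (B (A (O (c (c l l) (c l (d (d k l) (c l (d l l)))))) (O (c (c l l) (c l (d (d k l) (c l (d l l))))))) (A (O (c (c l l) (c l (d (c k k) (c l (d l l)))))) (O (c (c l l) (c l (d (c k k) (c l (d l l)))))))) (B (A (O (c (c l l) (c l (d (d k (c k k)) (c l (d l l)))))) (O (c (c l l) (c l (d (d k (c k k)) (c l (d l l))))))) (A (O (c (c l l) (c l (d (c k k) (c l (d l l)))))) (O (c (c l l) (c l (d (c k k) (c l (d l l)))))))))))) (B (A s s) (A (B (A s s) (A (B (A (O (c (c l l) (c l (d (d k (c k k)) (c l (d l l)))))) s) (A (O (c (c l l) (c l (d (d k l) (c l (d l l)))))) (O (c (c l l) (c l (d (d k (c k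 k)) (c l (d l l)))))))) (B (A s s) (A (O (c (c l l) (c l (d (d k (c k k)) (c l (d l l)))))) s)))) (B (A s s) (A (B s (A s s)) s)))))

theorem s00_r1110100 : Sound P00 49152 2048 49152 4096 :=
  chkOut2_sound P00 KK tr00_r1110100 49152 2048 49152 4096 (by decide +kernel)

end Vale.Agent.P154.D4.K0
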