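import Vale.Agent.P154.D4.K0.Charts

set_option maxRecDepth 100000

namespace Vale.Agent.P154.D4.K0

open Cert InT OutT

/-- Certificate tree. -/
def tr00_r111010101 : OutT :=
(A (B (A (B (A (O (c (c l l) (c l (d l (c l l))))) (O (c (c l l) (c l (d l (c l l)))))) (A (O (c (c l l) (c l (d l (c l l))))) (O (c (c l l) (c l (d l (c l l))))))) (B (A (O (c (c l l) (c l (d l (c l l))))) (O (c (c l l) (c l (d l (c l l)))))) (A (O (c (c l l) (c l (d l (c l l))))) (O (c (c l l) (c l (d l (c l l)))))))) (A (B (A (O (c (c l l) (c l (d l (c l l))))) (O (c (c l l) (c l (d l (c l l)))))) (A (O (c (c l l) (c l (d l (c l l))))) (O (c (c l l) (c l (d l (c l l))))))) (B (A (O (c (c l l) (c l (d l (c l l))))) (O (c (c l l) (c l (d l (c l l)))))) (A (O (c (c l l) (c l (d l (c l l))))) (O (c (c l l) (c l (d l (c l l))))))))) (B (A (B (A (O (c (c l l) (c l (d l (c l l))))) (O (c (c l l) (c l (d l (c l l)))))) (A (O (c (c l l) (c l (d l (c l l))))) (O (c (c l l) (c l (d l (c l l))))))) (B (A (O (c (c l l)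 (c l (d l (c l l))))) (O (c (c l l) (c l (d l (c l l)))))) (A (O (c (c l l) (c l (d l (c l l))))) (O (c (c l l) (c l (d l (c l l)))))))) (A (B (A (O (c (c l l) (c l (d l (c l l))))) (O (c (c l l) (c l (d l (c l l)))))) (A (O (c (c l l) (c l (d l (c l l))))) (O (c (c l l) (c l (d l (c l l))))))) (B (A (O (c (c l l) (c l (d l (c l l))))) (O (c (c l l) (c l (d l (c l l)))))) (A (O (c (c l l) (c l (d l (c l l))))) (O (c (c l l) (c l (d l (c l l))))))))))

theorem s00_r111010101 : Sound P00 49152 1024 61440 2048 :=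
  chkOut2_sound P00 KK tr00_r111010101 49152 1024 61440 2048 (by decide +kernel)

end Vale.Agent.P154.D4.K0
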