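import Vale.Agent.P154.D4.K0.Charts

set_option maxRecDepth 100000

namespace Vale.Agent.P154.D4.K0

open Cert InT OutT

/-- Certificate tree. -/
def tr00_r1111101011 : OutT :=
(B (A (B (A s s) (A (B s (A s s)) (B s (A s s)))) (B s (A (B s (A s s)) s))) (A (B (A (B (A (O (c l (c l (c l l)))) (O (c l (c l (c l l))))) (A (O (c l (c l (c l l)))) (O (c l (c l (c l l)))))) (B (A (O (c l (c l (d l l)))) (O (c l (c l (d l l))))) (A (O (c l (c l (c l l)))) (O (c l (c l (c l l))))))) (A (B (A (O (c l (c l (c l l)))) (O (c l (c l (c l l))))) (A (O (c l (c l l))) (O (c l (c l l))))) (B (A (O (c l (c l (c l l)))) (O (c l (c l (c l l))))) (A (O (c l (c l l))) (O (c l (c l (c l l)))))))) (B (A (B (A (O (c l (c l (d l l)))) (O (c l (c l (d l l))))) (A (O (c l (c l (c l l)))) (O (c l (c l (c l l)))))) (B (A (O (c l (c l (d l l)))) (O (c l (c l (d l l))))) (A (O (c l (c l (c l l)))) (O (c l (c l (c l l))))))) (A (B (A (O (c l (c l (c l l)))) (O (c l (c l (c l l))))) (A (O (c l (c l (c l l)))) (O (c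 l (c l (c l l)))))) (B (A (O (c l (c l (c l l)))) (O (c l (c l (c l l))))) (A (O (c l (c l (c l l)))) (O (c l (c l (c l l))))))))))

theorem s00_r1111101011 : Sound P00 58368 512 61440 2048 :=
  chkOut2_sound P00 KK tr00_r1111101011 58368 512 61440 2048 (by decide +kernel)

end Vale.Agent.P154.D4.K0
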