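import Vale.Agent.P154.D4.K0.Charts

set_option maxRecDepth 100000

namespace Vale.Agent.P154.D4.K0

open Cert InT OutT

/-- Certificate tree. -/
def tr01_r10110 : OutT :=
(A (B (A (B (O (c (c (c l l) (c (c l l) (c l l))) (c (c (c l (c l k)) k) k))) (A (O (c (c (c l l) (c l l)) (c (c l k) k))) (O (c (c (c l l) (c l l)) (c (c l k) k))))) (B (A (O (c (c (c l l) (c (c l l) (c l l))) (c (c (c l l) k) k))) (O (c (c l (c (c l l) (c (c l l) (c l l)))) (c (c (c (c l l) (d l k)) k) k)))) (A (O (c (c (c l l) (c l l)) (c (c (c l l) k) k))) (O (c (c (c l l) (c l (c l l))) (c (c (c l l) k) k)))))) (A (B (A (O (c (c (c l l) (c l l)) (c (c l k) k))) (O (c (c (c l l) (c l l)) (c (c l k) k)))) (A (O (c (c (c l l) (c l l)) (c (c l k) k))) (O (c (c (c l l) (c l l)) (c (c l k) k))))) (B (A (O (c (c (c l l) (c l l)) (c (c l k) k))) (O (c (c (c l l) (c l l)) (c (c l k) k)))) (A (O (c (c (c l l) (c l l)) (c (c l k) k))) (O (c (c (c l l) (c l l)) (c (c l k) k))))))) (B (A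 (B s (A (O (c (c l (c (c l l) (c l l))) (c (c (c l (c l k)) k) k))) s)) s) (A (B (A (O (c (c l (c l l)) (c (c (c l l) k) k))) (O (c (c l (c l l)) (c (c (c l l) k) k)))) (A (O (c (c l (c l l)) (c (c l k) k))) (O (c (c l (c l l)) (c (c l k) k))))) (B (A s s) (A (B (O (c (c l (c l l)) (c (c l k) k))) (O (c (c l (c l l)) (c (c l k) k)))) (B s (A s s)))))))

theorem s01_r10110 : Sound P01 40960 4096 32768 8192 :=
  chkOut2_sound P01 KK tr01_r10110 40960 4096 32768 8192 (by decide +kernel)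

end Vale.Agent.P154.D4.K0
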