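import Vale.Agent.P154.D4.K0.Charts

set_option maxRecDepth 100000

namespace Vale.Agent.P154.D4.K0

open Cert InT OutT

/-- Certificate tree. -/
def tr01_r111111 : OutT :=
(B (A s s) (A (B (A s s) (A (B (A s s) (A (B (A (B s (O (c l (c l k)))) (B s (O (c l (c l k))))) (A (B (O (c l (c l k))) (O (c l (c l k)))) (B (O (c l (c l k))) (O (c l (c l k)))))) (B (A (B s (O (c l (c l k)))) (B s (O (c l (c l k))))) (A (B (O (c l (c l k))) (O (c l (c l k)))) (B (O (c l (c l k))) (A (O (c l (c l k))) (O (c l (c l k))))))))) (B (A s s) (A (B (A (B s (A s s)) s) (A (B (A (O (c l (c l k))) (O (c l (c l k)))) (A (O (c l (c l k))) (O (c l (c l k))))) (B (A (O (c l (c l k))) (O (c l (c l k)))) (A (O (c l (c l k))) (O (c l (c l k))))))) (B (A s s) (A (B (A (O (c l (c l k))) (O (c l (c l k)))) (A (O (c l (c l k))) (O (c l (c l k))))) (B (A (O (c l (c l k))) (O (c l (c l k)))) (A (O (c l (c l k))) (O (c l (c l k))))))))))) (B (A s s) (A (B (A s s) (A (B (A s s) (A (B (A s s) (A (O (c l (c l k)))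 (O (c l (c l k))))) (B (A s s) (A (O (c l (c l k))) (O (c l (c l k))))))) (B (A s s) (A (B (A s s) (A (O (c l (c l k))) (O (c l (c l k))))) (B (A s s) (A (O (c l (c l k))) (O (c l (c l k))))))))) (B (A s s) (A (B (A s s) (A (B (A s s) (A (O (c l (c l k))) (O (c l (c l k))))) (B (A s s) (A (O (c l (c l k))) (O (c l (c l k))))))) (B (A s s) (A (B (A s s) (A (O (c l (c l k))) (O (c l (c l k))))) (B (A s s) (A (O (c l (c l k))) (O (c l (c l k)))))))))))))

theorem s01_r111111 : Sound P01 61440 2048 49152 8192 :=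
  chkOut2_sound P01 KK tr01_r111111 61440 2048 49152 8192 (by decide +kernel)

end Vale.Agent.P154.D4.K0
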